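import Vale.Agent.P037.Final

namespace Vale.Agent.Results.P037.Disproof

open Finset

/-- `(r, c)` is an ordered copy of `H` in `A`. -/
def IsCopy {k n : ℕ} (H : Fin k → Fin k → Bool) (A : Fin n → Fin n → Bool)
    (p : (Fin k → Fin n) × (Fin k → Fin n)) : Prop :=
  StrictMono p.1 ∧ StrictMono p.2 ∧ ∀ i j, A (p.1 i) (p.2 j) = H i j

open Classical in
/-- `N_H(A)`, the number of ordered copies of `H` in `A`. -/
noncomputable def numCopies {k n : ℕ} (H : Fin k → Fin k → Bool) (A : Fin n → Fin n → Bool) : ℕ :=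
  (univ.filter fun p => IsCopy H A p).card

/-- The number of entries in which `A` and `B` differ. -/
def changes {n : ℕ} (A B : Fin n → Fin n → Bool) : ℕ :=
  (univ.filter fun p : Fin n × Fin n => A p.1 p.2 ≠ B p.1 p.2).card

/-- `dist_H(A)`, the normalised distance of `A` from `H`-freeness. -/
noncomputable def distFree {k n : ℕ} (H : Fin k → Fin k → Bool) (A : Fin n → Fin n → Bool) : ℝ :=
  ((sInf {m : ℕ | ∃ B : Fin n → Fin n → Bool, numCopies H B = 0 ∧ m = changes A B} : ℕ) : ℝ) /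
    (n : ℝ) ^ 2

theorem result :
    (∀ c C : ℝ, 0 < c → 0 < C → ∃ (n : ℕ) (ε : ℝ) (A : Fin n → Fin n → Bool),
      1 ≤ n ∧ 0 < ε ∧ ε < 1 ∧ ε ≤ distFree (fun i j : Fin 11 => decide (i ≠ j)) A ∧
      (numCopies (fun i j : Fin 11 => decide (i ≠ j)) A : ℝ) < c * ε ^ C * (n : ℝ) ^ (2 * 11)) ∧
    ¬ ∀ (k : ℕ), 1 ≤ k → ∀ H : Fin k → Fin k → Bool, ∃ c C : ℝ, 0 < c ∧ 0 < C ∧
      ∀ (n : ℕ), 1 ≤ n → ∀ ε : ℝ, 0 < ε → ε < 1 → ∀ A : Fin n → Fin n → Bool,
        ε ≤ distFree H A → c * ε ^ C * (n : ℝ) ^ (2 * k) ≤ (numCopies H A : ℝ) := by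
  classical
  have key : ∀ c C : ℝ, 0 < c → 0 < C → ∃ (n : ℕ) (ε : ℝ) (A : Fin n → Fin n → Bool),
      1 ≤ n ∧ 0 < ε ∧ ε < 1 ∧ ε ≤ distFree (fun i j : Fin 11 => decide (i ≠ j)) A ∧
      (numCopies (fun i j : Fin 11 => decide (i ≠ j)) A : ℝ) < c * ε ^ C * (n : ℝ) ^ (2 * 11) := by
    intro c C hc hC
    obtain ⟨G', hG⟩ := Vale.Agent.P037.numeric (C := C) hc
    obtain ⟨N, L, n0, A, hN, hL1, hL2, hn0, h12⟩ := Vale.Agent.P037.main G'
    obtain ⟨hn0', hone, hnum⟩ := hG L n0 hL1 hL2 hn0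
    have hNpos : 0 < N := hN ▸ Nat.mul_pos hL1 hn0'
    have hLR : (0 : ℝ) < L := Nat.cast_pos.2 hL1
    have hn0R : (0 : ℝ) < n0 := Nat.cast_pos.2 hn0'
    have hNR : (N : ℝ) = L * n0 := by rw [hN]; push_cast; ring
    have hp : (0 : ℝ) < 10 ^ 6 * L ^ 2 := lt_trans one_pos hone
    have hp2 : (0 : ℝ) < (L * n0) ^ 2 := pow_pos (mul_pos hLR hn0R) 2
    have hp3 : (0 : ℝ) < L * N ^ 21 := mul_pos hLR (pow_pos (Nat.cast_pos.2 hNpos) 21)
    obtain ⟨h1, h2⟩ := h12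
    refine ⟨N, 1 / (10 ^ 6 * L ^ 2), A, hNpos, one_div_pos.2 hp, (div_lt_one hp).2 hone, ?_, ?_⟩
    · have hne : {m : ℕ | ∃ B : Fin N → Fin N → Bool,
          numCopies (fun i j : Fin 11 => decide (i ≠ j)) B = 0 ∧ m = changes A B}.Nonempty := by
        refine ⟨_, fun _ _ => false, ?_, rfl⟩
        unfold numCopies
        rw [card_eq_zero, filter_eq_empty_iff]
        intro p _ hp
        have := hp.2.2 0 1
        simp at this
      obtain ⟨B, hB, hm⟩ := Nat.sInf_mem hne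
      have := h2 B (fun p hp => by
        unfold numCopies at hB
        rw [card_eq_zero, filter_eq_empty_iff] at hB
        exact hB (mem_univ p) hp)
      have h3 : (n0 : ℝ) * n0 < 10 ^ 6 * (changes A B : ℝ) := by exact_mod_cast this
      unfold distFree
      rw [hm, hNR, div_le_div_iff₀ hp hp2]
      calc (1 : ℝ) * (L * n0) ^ 2 = L ^ 2 * (n0 * n0) := by ring
        _ ≤ L ^ 2 * (10 ^ 6 * (changes A B : ℝ)) := mul_le_mul_of_nonneg_left h3.le (sq_nonneg _)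
        _ = _ := by ring
    · have h3 : numCopies (fun i j : Fin 11 => decide (i ≠ j)) A ≤ 121 * (L * N ^ 21) := by
        refine le_trans (le_of_eq ?_) h1
        unfold numCopies IsCopy
        congr
      have h4 : (numCopies (fun i j : Fin 11 => decide (i ≠ j)) A : ℝ) ≤ 121 * (L * N ^ 21) := by
        exact_mod_cast h3
      refine h4.trans_lt ?_
      calc (121 : ℝ) * (L * N ^ 21) < c * (1 / (10 ^ 6 * L ^ 2) : ℝ) ^ C * n0 * (L * N ^ 21) :=
            mul_lt_mul_of_pos_right hnum hp3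
        _ = _ := by rw [show (N : ℝ) ^ (2 * 11) = N * N ^ 21 by ring]; nth_rewrite 2 [hNR]; ring
  refine ⟨key, fun h => ?_⟩
  obtain ⟨c, C, hc, hC, h⟩ := h 11 (by norm_num) (fun i j => decide (i ≠ j))
  obtain ⟨n, ε, A, h1, h2, h3, h4, h5⟩ := key c C hc hC
  exact absurd (h n h1 ε h2 h3 A h4) (not_le.2 h5)

end Vale.Agent.Results.P037.Disproof
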